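import Vale.Agent.P230.Period

open MeasureTheory Set Filter
open scoped ENNReal

namespace Vale.Agent.Results.P230.NLogN

open Vale.Agent.P230

theorem result : ∃ c C : ℝ, 0 < c ∧ ∃ m : ℕ, ∀ n : ℕ, m ≤ n →
    ENNReal.ofReal (c * n * Real.log n) ≤ worstT n ∧
    worstT n ≤ ENNReal.ofReal (C * n * Real.log n) ∧
    ENNReal.ofReal (c * n * Real.log n) ≤ worstL n := by
  obtain ⟨m, hm⟩ := eventually_atTop.1
    ((Real.tendsto_log_atTop.comp tendsto_natCast_atTop_atTop).eventually_ge_atTop 3000000000)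
  refine ⟨cc, 45, cc_pos, max m 3, fun n hn => ?_⟩
  obtain ⟨K, hK, h⟩ := lower (hm n ((le_max_left _ _).trans hn))
  have h1 : ENNReal.ofReal (cc * n * Real.log n) ≤ thetaT K :=
    le_iInf fun X => le_iInf fun h1 => le_iInf fun h2 => h X h1 h2
  exact ⟨le_iSup₂_of_le K hK h1,
    iSup₂_le fun K' hK' => upper ((le_max_right _ _).trans hn) hK',
    le_iSup₂_of_le K hK (h1.trans (thetaT_le_thetaL K))⟩

end Vale.Agent.Results.P230.NLogN
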